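import Mathlib
import Vale.Agent.Lib.P064.Defs
import Vale.Agent.Lib.P064.DefsT
import Vale.Agent.Lib.P064_helper3.Graph

namespace Vale.Agent.Results.P064.AllGraphsDomination

open Vale.Agent.Lib.P064

/-- The domination inequality of Dubroff-Kahn-Park for ALL graphs `H` and ALL graphs `F`, with
`L = 64 log n`: if every subgraph of `H` has expected count at least `1/2` in `G(n,q)`, then the
number of copies of `F` in `H` is at most the expected number of copies of `F` in
`G(n, min {1, 64 q log n})`.  Consequently `p~_E(n,H) ≤ 64 p_E(n,H) log n`. -/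
theorem result : ∀ (n : ℕ) (H : SimpleGraph (Fin n)), 2 ≤ n →
    (∀ q : ℝ, 0 < q → (∀ F : SimpleGraph (Fin n), F ≤ H → 1 / 2 ≤ expCopies q F) →
      ∀ F : SimpleGraph (Fin n),
        (copyCount H F : ℝ) ≤ expCopies (min 1 (64 * Real.log n * q)) F) ∧
    pTilde H ≤ 64 * pE H * Real.log n := by
  intro n H hn
  exact ⟨fun q hq hs F => general_domination hn q hq H hs F, pTilde_le_pE_log hn H⟩

end Vale.Agent.Results.P064.AllGraphsDomination
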