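import Mathlib
import Vale.Agent.Lib.P064.Defs
import Vale.Agent.Lib.P064.DefsT
import Vale.Agent.Lib.P064.DefsC
import Vale.Agent.Lib.P064_helper3.Refined

namespace Vale.Agent.Results.P064.AllGraphsEdgeLogSq

open Vale.Agent.Lib.P064

/-- For ALL graphs `H` on `n` vertices: `p_c(n,H) ≤ 1100 p_E(n,H) (log (4 e(H)))^2`, where `e(H)`
is the number of edges of `H`. Since `4 e(H) ≤ 2 n^2` this contains `f(n) = O(log^2 n)`, and it
gives the bound of Q1 verbatim for all `H` with `log^2 (4 e(H)) ≤ log n`. -/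
theorem result : ∀ (n : ℕ) (H : SimpleGraph (Fin n)),
    pc H ≤ 1100 * pE H * (Real.log (4 * (numEdges H : ℝ))) ^ 2 := by
  intro n H
  exact pc_le_pE_log_sq_edges H

end Vale.Agent.Results.P064.AllGraphsEdgeLogSq
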