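import Mathlib
import Vale.Agent.Lib.P064.Defs
import Vale.Agent.Lib.P064.DefsT
import Vale.Agent.Lib.P064.DefsC
import Vale.Agent.Lib.P064_helper3.Graph

namespace Vale.Agent.Results.P064.AllGraphsLogSq

open Vale.Agent.Lib.P064

/-- For ALL graphs `H` on `n ≥ 2` vertices: `p_c(n,H) ≤ 32768 p_E(n,H) (log n)^2`.
So the function `f(n)` of the problem satisfies `f(n) ≤ 32768 (log n)^2`. -/
theorem result : ∀ (n : ℕ) (H : SimpleGraph (Fin n)), 2 ≤ n →
    pc H ≤ 32768 * pE H * (Real.log n) ^ 2 := by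
  intro n H hn
  exact pc_le_pE_log_sq hn H

end Vale.Agent.Results.P064.AllGraphsLogSq
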