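import Mathlib
import Vale.Agent.Lib.P064.Defs
import Vale.Agent.Lib.P064.FMain

namespace Vale.Agent.Results.P064.ForestDomination

open Vale.Agent.Lib.P064

/-- The deterministic domination inequality of Dubroff-Kahn-Park for every forest `H`, for all
graphs `F` at once and with the universal constant `L = 49152 e^9`: if every subgraph of the
forest `H` has expected count at least `1/2` in `G(n,q)`, then for every graph `F` the number of
copies of `F` in `H` is at most the expected number of copies of `F` in `G(n, min {1, L q})`. -/
theorem result : ∀ (n : ℕ) (q : ℝ) (H : SimpleGraph (Fin n)), 0 < q → H.IsAcyclic →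
    (∀ F : SimpleGraph (Fin n), F ≤ H → 1 / 2 ≤ expCopies q F) →
    ∀ F : SimpleGraph (Fin n),
      (copyCount H F : ℝ) ≤ expCopies (min 1 (49152 * Real.exp 9 * q)) F := by
  intro n q H hq hH hs F
  exact forest_domination_half n q hq H hH hs F

end Vale.Agent.Results.P064.ForestDomination
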