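import Mathlib
import Vale.Agent.Lib.P064.Defs
import Vale.Agent.Lib.P064.DefsT
import Vale.Agent.Lib.P064.DefsC
import Vale.Agent.Lib.P064.FPc

namespace Vale.Agent.Results.P064.ForestKahnKalai

open Vale.Agent.Lib.P064

/-- The bound of Q1 (second Kahn-Kalai conjecture) for every forest `H`, with an explicit
universal constant. -/
theorem result : ∀ (n : ℕ) (H : SimpleGraph (Fin n)), 2 ≤ n → H.IsAcyclic →
    pc H ≤ 25165824 * Real.exp 9 * pE H * Real.log n := by
  intro n H hn hH
  exact pc_le_pE_log hn H hH

end Vale.Agent.Results.P064.ForestKahnKalai
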