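import Mathlib
import Vale.Agent.Lib.P064.Defs
import Vale.Agent.Lib.P064.DefsT
import Vale.Agent.Lib.P064.FThresh

namespace Vale.Agent.Results.P064.ForestThreshold

open Vale.Agent.Lib.P064

/-- For every forest `H` on `n` vertices the two expectation thresholds of the problem agree up
to the universal constant `49152 e^9`. -/
theorem result : ∀ (n : ℕ) (H : SimpleGraph (Fin n)), H.IsAcyclic →
    pTilde H ≤ 49152 * Real.exp 9 * pE H := by
  intro n H hH
  exact pTilde_le_pE H hH

end Vale.Agent.Results.P064.ForestThreshold
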