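import Mathlib
import Vale.Agent.Lib.P064.Defs
import Vale.Agent.Lib.P064.Main

namespace Vale.Agent.Results.P064.StarDomination

open Vale.Agent.Lib.P064

/-- Deterministic domination inequality of Dubroff-Kahn-Park for all stars, with the universal
constant `L = 16 e^6`: if every subgraph of `H` has expected count at least `1` in `G(n,q)`,
then for every star `F = K_{1,t}` the number of copies of `F` in `H` is at most the expected
number of copies of `F` in `G(n, min {1, L q})`. -/
theorem result : ∀ (n : ℕ) (q : ℝ) (H : SimpleGraph (Fin n)), 0 < q → q ≤ 1 →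
    (∀ F : SimpleGraph (Fin n), F ≤ H → 1 ≤ expCopies q F) →
    ∀ (t : ℕ) (F : SimpleGraph (Fin n)), 1 ≤ t → IsStar F t →
      (copyCount H F : ℝ) ≤ expCopies (min 1 (16 * Real.exp 6 * q)) F := by
  intro n q H hq _ hsparse t F ht hF
  exact star_domination n q hq H hsparse t ht F hF

end Vale.Agent.Results.P064.StarDomination
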